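import Mathlib

open MeasureTheory Real Set Filter
open scoped ENNReal

namespace Vale.Agent.P245.H975

variable {Ω : Type*} [MeasurableSpace Ω] {μ : Measure Ω}

/-- Jensen's inequality for log-sum-exp: `Σ exp (E h i) ≤ exp (E log Σ exp (h i))`. -/
theorem lse_jensen [IsProbabilityMeasure μ] {N : ℕ} (hN : 0 < N) (h : Fin N → Ω → ℝ)
    (hint : ∀ i, Integrable (h i) μ)
    (hl : Integrable (fun x => log (∑ i, exp (h i x))) μ) :
    ∑ i, exp (∫ x, h i x ∂μ) ≤ exp (∫ x, log (∑ i, exp (h i x)) ∂μ) := by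
  have : Nonempty (Fin N) := ⟨⟨0, hN⟩⟩
  set m : Fin N → ℝ := fun i => ∫ x, h i x ∂μ with hm
  set S : ℝ := ∑ i, exp (m i) with hS
  have hSpos : 0 < S := Finset.sum_pos (fun i _ => exp_pos _) Finset.univ_nonempty
  set q : Fin N → ℝ := fun i => exp (m i) / S with hq
  have hq0 : ∀ i, 0 < q i := fun i => div_pos (exp_pos _) hSpos
  have hq1 : ∑ i, q i = 1 := by
    rw [hq, ← Finset.sum_div, ← hS, div_self hSpos.ne']
  -- pointwise
  have key : ∀ x, log S + ∑ i, q i * (h i x - m i) ≤ log (∑ i, exp (h i x)) := by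
    intro x
    have e1 : ∑ i, exp (h i x) = S * ∑ i, q i * exp (h i x - m i) := by
      rw [Finset.mul_sum]
      refine Finset.sum_congr rfl fun i _ => ?_
      rw [hq]
      simp only
      rw [exp_sub]
      field_simp
    have h2 : exp (∑ i, q i * (h i x - m i)) ≤ ∑ i, q i * exp (h i x - m i) := by
      have := convexOn_exp.map_sum_le (t := Finset.univ) (w := q) (p := fun i => h i x - m i)
        (fun i _ => (hq0 i).le) hq1 (fun i _ => Set.mem_univ _)
      simpa [smul_eq_mul] using this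
    have h3 : ∑ i, q i * (h i x - m i) ≤ log (∑ i, q i * exp (h i x - m i)) := by
      rw [← log_exp (∑ i, q i * (h i x - m i))]
      exact log_le_log (exp_pos _) h2
    rw [e1, log_mul hSpos.ne' (ne_of_gt (lt_of_lt_of_le (exp_pos _) h2))]
    linarith
  have h4 : ∫ x, (log S + ∑ i, q i * (h i x - m i)) ∂μ = log S := by
    have hi : ∀ i ∈ (Finset.univ : Finset (Fin N)),
        Integrable (fun x => q i * (h i x - m i)) μ :=
      fun i _ => ((hint i).sub (integrable_const _)).const_mul _
    rw [integral_add (integrable_const _) (integrable_finsetSum _ hi), integral_finsetSum _ hi]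
    have : ∀ i ∈ (Finset.univ : Finset (Fin N)), ∫ x, q i * (h i x - m i) ∂μ = 0 := by
      intro i _
      rw [integral_const_mul, integral_sub (hint i) (integrable_const _)]
      simp [hm]
    rw [Finset.sum_congr rfl this]
    simp
  have h5 : log S ≤ ∫ x, log (∑ i, exp (h i x)) ∂μ := by
    rw [← h4]
    refine integral_mono ?_ hl key
    refine (integrable_const _).add (integrable_finsetSum _ fun i _ => ?_)
    exact ((hint i).sub (integrable_const _)).const_mul _
  calc S = exp (log S) := (exp_log hSpos).symm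
    _ ≤ _ := exp_le_exp.2 h5

/-- the soft maximum of integrable functions is integrable -/
theorem lse_integrable [IsProbabilityMeasure μ] {N : ℕ} (hN : 0 < N) (h : Fin N → Ω → ℝ)
    (hint : ∀ i, Integrable (h i) μ) :
    Integrable (fun x => log (∑ i, exp (h i x))) μ := by
  have : Nonempty (Fin N) := ⟨⟨0, hN⟩⟩
  have hms : AEStronglyMeasurable (fun x => log (∑ i, exp (h i x))) μ := by
    have h1 : AEMeasurable (fun x => ∑ i, exp (h i x)) μ :=
      Finset.aemeasurable_fun_sum _ fun i _ =>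
        Real.measurable_exp.comp_aemeasurable (hint i).aemeasurable
    exact (Real.measurable_log.comp_aemeasurable h1).aestronglyMeasurable
  have hb : Integrable (fun x => log N + ∑ i, |h i x|) μ :=
    (integrable_const _).add (integrable_finsetSum _ fun i _ => (hint i).abs)
  refine hb.mono' hms (Eventually.of_forall fun x => ?_)
  rw [Real.norm_eq_abs, abs_le]
  have hNr : (0 : ℝ) < N := by exact_mod_cast hN
  have hN1 : (1 : ℝ) ≤ N := by exact_mod_cast hN
  have hsum : ∀ i, |h i x| ≤ ∑ j, |h j x| := fun i =>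
    Finset.single_le_sum (f := fun j => |h j x|) (fun j _ => abs_nonneg _) (Finset.mem_univ i)
  constructor
  · have h1 : exp (h ⟨0, hN⟩ x) ≤ ∑ i, exp (h i x) :=
      Finset.single_le_sum (f := fun j => exp (h j x)) (fun j _ => (exp_pos _).le)
        (Finset.mem_univ _)
    have h2 : h ⟨0, hN⟩ x ≤ log (∑ i, exp (h i x)) := by
      rw [← log_exp (h ⟨0, hN⟩ x)]
      exact log_le_log (exp_pos _) h1
    have h3 := hsum ⟨0, hN⟩
    have h4 := neg_abs_le (h ⟨0, hN⟩ x)
    have h5 : 0 ≤ log (N : ℝ) := log_nonneg hN1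
    linarith
  · have h1 : ∑ i, exp (h i x) ≤ N * exp (∑ j, |h j x|) := by
      calc ∑ i, exp (h i x) ≤ ∑ _i : Fin N, exp (∑ j, |h j x|) := by
            refine Finset.sum_le_sum fun i _ => exp_le_exp.2 ((le_abs_self _).trans (hsum i))
        _ = N * exp (∑ j, |h j x|) := by simp
    have h2 : 0 < ∑ i, exp (h i x) := Finset.sum_pos (fun i _ => exp_pos _) Finset.univ_nonempty
    calc log (∑ i, exp (h i x)) ≤ log (N * exp (∑ j, |h j x|)) := log_le_log h2 h1
      _ = log N + ∑ j, |h j x| := by rw [log_mul hNr.ne' (exp_pos _).ne', log_exp]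

/-- exponential moments of a soft maximum from those of its pieces -/
theorem soft_of [IsProbabilityMeasure μ] {N : ℕ} (hN : 0 < N) (h : Fin N → Ω → ℝ)
    (hint : ∀ i, Integrable (h i) μ) (hexp : ∀ i, Integrable (fun x => exp (h i x)) μ) {D : ℝ}
    (hD : ∀ i, ∫ x, exp (h i x) ∂μ ≤ exp (D + ∫ x, h i x ∂μ)) :
    ∫ x, ∑ i, exp (h i x) ∂μ ≤ exp (D + ∫ x, log (∑ i, exp (h i x)) ∂μ) := by
  rw [integral_finsetSum _ fun i _ => hexp i]
  calc ∑ i, ∫ x, exp (h i x) ∂μ ≤ ∑ i, exp D * exp (∫ x, h i x ∂μ) :=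
        Finset.sum_le_sum fun i _ => by rw [← exp_add]; exact hD i
    _ = exp D * ∑ i, exp (∫ x, h i x ∂μ) := by rw [Finset.mul_sum]
    _ ≤ exp D * exp (∫ x, log (∑ i, exp (h i x)) ∂μ) :=
        mul_le_mul_of_nonneg_left (lse_jensen hN h hint (lse_integrable hN h hint)) (exp_pos _).le
    _ = _ := by rw [← exp_add]

end Vale.Agent.P245.H975
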