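import Vale.Agent.P245.H975.Soft
import Vale.Agent.P245.H607.Cor

open MeasureTheory Real Set Filter
open scoped ENNReal

namespace Vale.Agent.P245.H975

open Vale.Agent.P245.H607

variable {n : ℕ} {μ : Measure (EuclideanSpace ℝ (Fin n))}

/-- exponential moments of soft maxima of any number of concave Lipschitz functions -/
theorem soft [IsProbabilityMeasure μ] {a C0 : ℝ} (ha : 0 < a) (hC0 : 0 < C0) (hK : KLS C0)
    (hlc : HasLogConcaveDensity μ) (hsub : LinearlySubgaussian μ a) {N : ℕ} (hN : 0 < N)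
    (F : Fin N → EuclideanSpace ℝ (Fin n) → ℝ) (hF : ∀ i, LipschitzWith 1 (F i))
    (hconvF : ∀ i, ConvexOn ℝ univ (F i)) {t : ℝ} (ht : 0 ≤ t) :
    ∫ x, ∑ i, exp (-t * F i x) ∂μ ≤
      exp ((8 * C0 + 26) * a ^ 2 * t ^ 2 + ∫ x, log (∑ i, exp (-t * F i x)) ∂μ) := by
  have hi : ∀ i, Integrable (F i) μ := fun i => lip_integrable ha hsub (hF i)
  have he : ∀ i, Integrable (fun x => exp (-t * F i x)) μ := by
    intro i
    have := exp_int ha hsub (hF i) t 0
    simpa using this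
  refine soft_of hN (fun i x => -t * F i x) (fun i => (hi i).const_mul _) he fun i => ?_
  have h1 := conc ha hC0 hK hlc hsub (hF i) (hconvF i) ht
  have e : ∫ x, exp (-t * F i x) ∂μ
      = exp (-t * ∫ y, F i y ∂μ) * ∫ x, exp (-t * (F i x - ∫ y, F i y ∂μ)) ∂μ := by
    rw [← integral_const_mul]
    refine integral_congr_ae (Eventually.of_forall fun x => ?_)
    simp only
    rw [← exp_add]; congr 1; ring
  rw [e, exp_add, integral_const_mul, mul_comm]
  exact mul_le_mul_of_nonneg_right h1 (exp_pos _).le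

/-- Gaussian upper exponential moments of the soft maxima `w = log Σ exp (-t F i)` of any number
of concave `t`-Lipschitz functions `-t F i`: `log E exp w ≤ E w + C a² t²`. -/
def SoftConcentration (μ : Measure (EuclideanSpace ℝ (Fin n))) (C a : ℝ) : Prop :=
  ∀ (N : ℕ) (F : Fin N → EuclideanSpace ℝ (Fin n) → ℝ), 0 < N → (∀ i, LipschitzWith 1 (F i)) →
    (∀ i, ConvexOn ℝ Set.univ (F i)) → ∀ t : ℝ, 0 ≤ t →
      ∫ x, ∑ i, Real.exp (-t * F i x) ∂μ ≤
        Real.exp (C * a ^ 2 * t ^ 2 + ∫ x, Real.log (∑ i, Real.exp (-t * F i x)) ∂μ)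

theorem softConcentration [IsProbabilityMeasure μ] {a C0 C : ℝ} (ha : 0 < a) (hC0 : 0 < C0)
    (hK : KLS C0) (hlc : HasLogConcaveDensity μ) (hsub : LinearlySubgaussian μ a)
    (hC : 8 * C0 + 26 ≤ C) : SoftConcentration μ C a := by
  intro N F hN hF hconv t ht
  refine (soft ha hC0 hK hlc hsub hN F hF hconv ht).trans (exp_le_exp.2 ?_)
  have : (8 * C0 + 26) * a ^ 2 * t ^ 2 ≤ C * a ^ 2 * t ^ 2 := by gcongr
  linarith

end Vale.Agent.P245.H975
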