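import Vale.Agent.P245.H975.SoftC

open MeasureTheory Real Set Filter
open scoped ENNReal

namespace Vale.Agent.P245.H975

open Vale.Agent.P245.H607

/-- the log-sum inequality in pointwise form -/
theorem logsum_pt {N : ℕ} (g q : Fin N → ℝ) (hg : ∀ i, 0 < g i) (hq : ∀ i, 0 < q i)
    (hq1 : ∑ i, q i = 1) :
    ∑ i, g i * log (q i) ≤ ∑ i, g i * log (g i) - (∑ i, g i) * log (∑ i, g i) := by
  rcases Nat.eq_zero_or_pos N with h0 | hN
  · subst h0; simp
  have : Nonempty (Fin N) := ⟨⟨0, hN⟩⟩
  set G := ∑ i, g i with hG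
  have hGp : 0 < G := Finset.sum_pos (fun i _ => hg i) Finset.univ_nonempty
  have key : ∀ i, g i * log (q i) + (g i - q i * G) ≤ g i * log (g i) - g i * log G := by
    intro i
    have hx : 0 < g i / (q i * G) := div_pos (hg i) (mul_pos (hq i) hGp)
    have h1 := one_sub_inv_le_log_of_pos hx
    have h2 := mul_le_mul_of_nonneg_left h1 (hg i).le
    rw [log_div (hg i).ne' (mul_pos (hq i) hGp).ne', log_mul (hq i).ne' hGp.ne'] at h2
    have h3 : g i * (1 - (g i / (q i * G))⁻¹) = g i - q i * G := by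
      have := (hg i).ne'
      field_simp
    rw [h3] at h2
    nlinarith
  have h4 := Finset.sum_le_sum fun i (_ : i ∈ (Finset.univ : Finset (Fin N))) => key i
  rw [Finset.sum_add_distrib, Finset.sum_sub_distrib, Finset.sum_sub_distrib, ← Finset.sum_mul,
    ← Finset.sum_mul, hq1, ← hG] at h4
  linarith

variable {n : ℕ} {μ : Measure (EuclideanSpace ℝ (Fin n))}

/-- subadditivity of the entropy -/
theorem entropy_sum_le [IsProbabilityMeasure μ] {N : ℕ} (hN : 0 < N)
    (g : Fin N → EuclideanSpace ℝ (Fin n) → ℝ) (hg : ∀ i x, 0 < g i x)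
    (hi : ∀ i, Integrable (g i) μ) (hl : ∀ i, Integrable (fun x => g i x * log (g i x)) μ) :
    Entropy μ (fun x => ∑ i, g i x) ≤ ∑ i, Entropy μ (g i) := by
  have : Nonempty (Fin N) := ⟨⟨0, hN⟩⟩
  have hNr : (0 : ℝ) < N := by exact_mod_cast hN
  set m : Fin N → ℝ := fun i => ∫ x, g i x ∂μ with hm
  have hm0 : ∀ i, 0 < m i := by
    intro i
    rw [hm]
    refine (integral_pos_iff_support_of_nonneg (fun x => (hg i x).le) (hi i)).2 ?_
    have : Function.support (g i) = univ := by
      ext x; simp [(hg i x).ne']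
    rw [this]; simp
  set M : ℝ := ∑ i, m i with hM
  have hMp : 0 < M := Finset.sum_pos (fun i _ => hm0 i) Finset.univ_nonempty
  have hq0 : ∀ i, 0 < m i / M := fun i => div_pos (hm0 i) hMp
  have hq1 : ∑ i, m i / M = 1 := by rw [← Finset.sum_div, ← hM, div_self hMp.ne']
  have hGi : Integrable (fun x => ∑ i, g i x) μ := integrable_finsetSum _ fun i _ => hi i
  have hLi : Integrable (fun x => ∑ i, g i x * log (g i x)) μ :=
    integrable_finsetSum _ fun i _ => hl i
  have hGint : ∫ x, ∑ i, g i x ∂μ = M := by rw [integral_finsetSum _ fun i _ => hi i]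
  -- integrability of G log G
  have hGl : Integrable (fun x => (∑ i, g i x) * log (∑ i, g i x)) μ := by
    have hb : Integrable (fun x => |∑ i, g i x * log (g i x)| + (∑ i, g i x) * log N + 1) μ :=
      (hLi.abs.add (hGi.mul_const _)).add (integrable_const _)
    refine hb.mono' ?_ (Eventually.of_forall fun x => ?_)
    · exact (hGi.aemeasurable.mul
        (Real.measurable_log.comp_aemeasurable hGi.aemeasurable)).aestronglyMeasurable
    · have hGp : 0 < ∑ i, g i x := Finset.sum_pos (fun i _ => hg i x) Finset.univ_nonempty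
      have h1 := logsum_pt (fun i => g i x) (fun _ => (1 : ℝ) / N) (fun i => hg i x)
        (fun _ => by positivity) (by simp [hNr.ne'])
      rw [← Finset.sum_mul, one_div, log_inv] at h1
      have h2 : (∑ i, g i x) * log (∑ i, g i x) ≥ (∑ i, g i x) - 1 := by
        have h3 := one_sub_inv_le_log_of_pos hGp
        have h4 := mul_le_mul_of_nonneg_left h3 hGp.le
        have h5 : (∑ i, g i x) * (1 - (∑ i, g i x)⁻¹) = (∑ i, g i x) - 1 := by
          field_simp
        linarith
      have h6 := le_abs_self (∑ i, g i x * log (g i x))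
      have h7 := abs_nonneg (∑ i, g i x * log (g i x))
      have h8 : 0 ≤ (∑ i, g i x) * log N :=
        mul_nonneg hGp.le (log_nonneg (by exact_mod_cast hN))
      rw [Real.norm_eq_abs, abs_le]
      constructor <;> linarith
  have h1 : ∫ x, ∑ i, g i x * log (m i / M) ∂μ ≤
      ∫ x, (∑ i, g i x * log (g i x) - (∑ i, g i x) * log (∑ i, g i x)) ∂μ := by
    refine integral_mono (integrable_finsetSum _ fun i _ => (hi i).mul_const _)
      (hLi.sub hGl) fun x => ?_
    exact logsum_pt (fun i => g i x) (fun i => m i / M) (fun i => hg i x) hq0 hq1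
  rw [integral_sub hLi hGl, integral_finsetSum _ fun i _ => (hi i).mul_const _,
    integral_finsetSum _ fun i _ => hl i] at h1
  have h2 : ∑ i, ∫ x, g i x * log (m i / M) ∂μ = ∑ i, m i * log (m i) - M * log M := by
    have : ∀ i ∈ (Finset.univ : Finset (Fin N)), ∫ x, g i x * log (m i / M) ∂μ
        = m i * log (m i) - m i * log M := by
      intro i _
      rw [integral_mul_const, log_div (hm0 i).ne' hMp.ne', mul_sub]
    rw [Finset.sum_congr rfl this, Finset.sum_sub_distrib, ← Finset.sum_mul]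
  rw [h2] at h1
  unfold Entropy
  rw [hGint, Finset.sum_sub_distrib]
  have h3 : ∑ i, (∫ x, g i x ∂μ) * log (∫ x, g i x ∂μ) = ∑ i, m i * log (m i) := rfl
  rw [h3]
  linarith

/-- the logarithmic Sobolev inequality with the supremum of the gradients for soft maxima -/
theorem soft_lsi [IsProbabilityMeasure μ] {a C0 : ℝ} (ha : 0 < a) (hC0 : 0 < C0) (hK : KLS C0)
    (hlc : HasLogConcaveDensity μ) (hsub : LinearlySubgaussian μ a) {N : ℕ} (hN : 0 < N)
    (F : Fin N → EuclideanSpace ℝ (Fin n) → ℝ) (hF : ∀ i, LipschitzWith 1 (F i))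
    (hconvF : ∀ i, ConvexOn ℝ univ (F i)) {t : ℝ} (ht : 0 ≤ t) :
    Entropy μ (fun x => ∑ i, exp (-t * F i x)) ≤
      (8 * C0 + 26) * a ^ 2 * t ^ 2 * ∫ x, ∑ i, exp (-t * F i x) ∂μ := by
  have he : ∀ i, Integrable (fun x => exp (-t * F i x)) μ := by
    intro i
    have := exp_int ha hsub (hF i) t 0
    simpa using this
  have hl : ∀ i, Integrable (fun x => exp (-t * F i x) * log (exp (-t * F i x))) μ := by
    intro i
    have hs := std_of ha hsub (hF i)
    have h1 := integrable_lip hs t hs.lip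
    rw [integrable_nu_iff _ _ hs] at h1
    refine (h1.mul_const (-t)).congr (Eventually.of_forall fun x => ?_)
    simp only [log_exp]
    ring
  refine (entropy_sum_le hN (fun i x => exp (-t * F i x)) (fun i x => exp_pos _) he hl).trans ?_
  rw [integral_finsetSum _ fun i _ => he i, Finset.mul_sum]
  exact Finset.sum_le_sum fun i _ => cor_lsi ha hC0 hK hlc hsub (hF i) (hconvF i) ht

/-- Soft maxima `w = log Σ exp (-t F i)` of any number of concave `t`-Lipschitz functions `-t F i`
satisfy `log E exp w ≤ E w + C a² t²` and `Ent (exp w) ≤ C a² t² E exp w`. -/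
def SoftMaxima (μ : Measure (EuclideanSpace ℝ (Fin n))) (C a : ℝ) : Prop :=
  ∀ (N : ℕ) (F : Fin N → EuclideanSpace ℝ (Fin n) → ℝ), 0 < N → (∀ i, LipschitzWith 1 (F i)) →
    (∀ i, ConvexOn ℝ Set.univ (F i)) → ∀ t : ℝ, 0 ≤ t →
      ∫ x, ∑ i, Real.exp (-t * F i x) ∂μ ≤
        Real.exp (C * a ^ 2 * t ^ 2 + ∫ x, Real.log (∑ i, Real.exp (-t * F i x)) ∂μ) ∧
      Entropy μ (fun x => ∑ i, Real.exp (-t * F i x)) ≤
        C * a ^ 2 * t ^ 2 * ∫ x, ∑ i, Real.exp (-t * F i x) ∂μ

theorem softMaxima [IsProbabilityMeasure μ] {a C0 C : ℝ} (ha : 0 < a) (hC0 : 0 < C0)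
    (hK : KLS C0) (hlc : HasLogConcaveDensity μ) (hsub : LinearlySubgaussian μ a)
    (hC : 8 * C0 + 26 ≤ C) : SoftMaxima μ C a := by
  intro N F hN hF hconv t ht
  have h0 : (8 * C0 + 26) * a ^ 2 * t ^ 2 ≤ C * a ^ 2 * t ^ 2 := by gcongr
  refine ⟨(soft ha hC0 hK hlc hsub hN F hF hconv ht).trans (exp_le_exp.2 (by linarith)),
    (soft_lsi ha hC0 hK hlc hsub hN F hF hconv ht).trans ?_⟩
  refine mul_le_mul_of_nonneg_right h0 (integral_nonneg fun x => ?_)
  exact Finset.sum_nonneg fun i _ => (exp_pos _).le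

end Vale.Agent.P245.H975
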